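import Vale.Agent.P181.H303.Spec

/-! P181, `b = q a`: the final numerics (row NUM). -/

set_option autoImplicit false

namespace Vale.Agent.P181.H160

open Vale.Agent.P181.H303

theorem num_core {a q K c ℓ b : ℝ} (ha : 0 < a) (hq : 1 ≤ q) (hK : 1 ≤ K) (hc : 0 ≤ c)
    (hℓ : 1 / 2 ≤ ℓ) (hb : b ≤ 3 * ℓ) (hb0 : 0 ≤ b)
    (hC : (2688 + 1048576 * c) * (q ^ 3 * K ^ 15 * ℓ) ≤ a) :
    2 * ℓ + q * ℓ + q * (2 * K) * b + q * (c * (q ^ 2 * (2 * K) ^ 12) + 2 * K * (q * (2 * K) * b))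
      ≤ a / (2 * K) * (1 / (16 * K ^ 2)) / 4 := by
  have hK0 : 0 < K := by linarith
  have hq0 : 0 < q := by linarith
  have hℓ0 : 0 < ℓ := by linarith
  have e1 : a / (2 * K) * (1 / (16 * K ^ 2)) / 4 = a / (128 * K ^ 3) := by
    field_simp
    ring
  rw [e1, le_div_iff₀ (by positivity)]
  refine le_trans ?_ hC
  have k12 : (1 : ℝ) ≤ K ^ 12 := one_le_pow₀ hK
  have hqq : q ≤ q ^ 3 := le_self_pow₀ hq (by norm_num)
  have hq2 : q ^ 2 ≤ q ^ 3 := pow_le_pow_right₀ hq (by norm_num)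
  have hq3 : (1 : ℝ) ≤ q ^ 3 := one_le_pow₀ hq
  have hK1 : K ≤ K ^ 12 := le_self_pow₀ hK (by norm_num)
  have hK2 : K ^ 2 ≤ K ^ 12 := pow_le_pow_right₀ hK (by norm_num)
  have m1 : ℓ ≤ q ^ 3 * K ^ 12 * ℓ := by
    have : (1 : ℝ) ≤ q ^ 3 * K ^ 12 := by nlinarith
    nlinarith
  have m2 : q * ℓ ≤ q ^ 3 * K ^ 12 * ℓ := by
    have : q ≤ q ^ 3 * K ^ 12 := by nlinarith
    nlinarith
  have m3 : q * K * b ≤ 3 * (q ^ 3 * K ^ 12 * ℓ) := by
    have h1 : q * K ≤ q ^ 3 * K ^ 12 := mul_le_mul hqq hK1 hK0.le (by positivity)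
    calc q * K * b ≤ q ^ 3 * K ^ 12 * (3 * ℓ) := mul_le_mul h1 hb hb0 (by positivity)
      _ = _ := by ring
  have m4 : q ^ 2 * K ^ 2 * b ≤ 3 * (q ^ 3 * K ^ 12 * ℓ) := by
    have h1 : q ^ 2 * K ^ 2 ≤ q ^ 3 * K ^ 12 := mul_le_mul hq2 hK2 (by positivity) (by positivity)
    calc q ^ 2 * K ^ 2 * b ≤ q ^ 3 * K ^ 12 * (3 * ℓ) := mul_le_mul h1 hb hb0 (by positivity)
      _ = _ := by ring
  have m5 : c * (q ^ 3 * K ^ 12) ≤ 2 * (c * (q ^ 3 * K ^ 12 * ℓ)) := by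
    have : c * (q ^ 3 * K ^ 12) * 1 ≤ c * (q ^ 3 * K ^ 12) * (2 * ℓ) :=
      mul_le_mul_of_nonneg_left (by linarith) (by positivity)
    linarith
  have tot : 2 * ℓ + q * ℓ + q * (2 * K) * b +
      q * (c * (q ^ 2 * (2 * K) ^ 12) + 2 * K * (q * (2 * K) * b)) ≤
      (21 + 8192 * c) * (q ^ 3 * K ^ 12 * ℓ) := by
    have e2 : 2 * ℓ + q * ℓ + q * (2 * K) * b +
      q * (c * (q ^ 2 * (2 * K) ^ 12) + 2 * K * (q * (2 * K) * b)) =
      2 * ℓ + q * ℓ + 2 * (q * K * b) + 4096 * (c * (q ^ 3 * K ^ 12)) +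
        4 * (q ^ 2 * K ^ 2 * b) := by ring
    rw [e2]
    linarith
  calc _ ≤ (21 + 8192 * c) * (q ^ 3 * K ^ 12 * ℓ) * (128 * K ^ 3) :=
        mul_le_mul_of_nonneg_right tot (by positivity)
    _ = _ := by ring

theorem rowNUM : RowNUM := by
  intro C0
  refine ⟨2688 + 1048576 * C0, ?_⟩
  intro a q K hq hK hC ha
  have hqR : (1 : ℝ) ≤ q := by exact_mod_cast hq
  have hKR : (1 : ℝ) ≤ K := by exact_mod_cast hK
  have haR : (2 : ℝ) ≤ a := by exact_mod_cast ha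
  have hcR : (0 : ℝ) ≤ C0 := Nat.cast_nonneg _
  have hℓ : (1 / 2 : ℝ) ≤ Real.log a := by
    have h2 : Real.log 2 ≤ Real.log a := Real.log_le_log (by norm_num) haR
    have := Real.log_two_gt_d9
    linarith
  push_cast at hC
  have hP : (1 / 2 : ℝ) * ((q : ℝ) ^ 3 * K ^ 15) ≤ (q : ℝ) ^ 3 * K ^ 15 * Real.log a := by
    have : (0 : ℝ) ≤ (q : ℝ) ^ 3 * K ^ 15 := by positivity
    nlinarith
  have hP0 : (0 : ℝ) ≤ (q : ℝ) ^ 3 * K ^ 15 * Real.log a := by positivity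
  have hqq : (q : ℝ) ≤ (q : ℝ) ^ 3 := le_self_pow₀ hqR (by norm_num)
  have hK15 : (1 : ℝ) ≤ (K : ℝ) ^ 15 := one_le_pow₀ hKR
  constructor
  · intro s hs
    have hsR : (s : ℝ) ≤ 2 * K := by exact_mod_cast hs
    have h6 : (s : ℝ) ^ 6 ≤ 64 * K ^ 15 := by
      calc (s : ℝ) ^ 6 ≤ (2 * K) ^ 6 := pow_le_pow_left₀ (Nat.cast_nonneg _) hsR 6
        _ = 64 * K ^ 6 := by ring
        _ ≤ 64 * K ^ 15 := by
          have : (K : ℝ) ^ 6 ≤ K ^ 15 := pow_le_pow_right₀ hKR (by norm_num)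
          linarith
    have h7 : (q : ℝ) * s ^ 6 ≤ 64 * ((q : ℝ) ^ 3 * K ^ 15) := by
      calc (q : ℝ) * s ^ 6 ≤ (q : ℝ) ^ 3 * (64 * K ^ 15) :=
            mul_le_mul hqq h6 (by positivity) (by positivity)
        _ = _ := by ring
    have h8 : (C0 : ℝ) * (q * s ^ 6) ≤ a := by
      calc (C0 : ℝ) * (q * s ^ 6) ≤ C0 * (64 * ((q : ℝ) ^ 3 * K ^ 15)) :=
            mul_le_mul_of_nonneg_left h7 hcR
        _ ≤ C0 * (128 * ((q : ℝ) ^ 3 * K ^ 15 * Real.log a)) :=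
            mul_le_mul_of_nonneg_left (by linarith) hcR
        _ = 128 * C0 * ((q : ℝ) ^ 3 * K ^ 15 * Real.log a) := by ring
        _ ≤ (2688 + 1048576 * C0) * ((q : ℝ) ^ 3 * K ^ 15 * Real.log a) :=
            mul_le_mul_of_nonneg_right (by linarith) hP0
        _ ≤ a := hC
    exact_mod_cast h8
  · have hqa : (q : ℝ) ≤ a := by
      have h1 : (q : ℝ) ≤ (q : ℝ) ^ 3 * K ^ 15 := by
        calc (q : ℝ) ≤ (q : ℝ) ^ 3 := hqq
          _ = (q : ℝ) ^ 3 * 1 := by ring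
          _ ≤ (q : ℝ) ^ 3 * K ^ 15 := mul_le_mul_of_nonneg_left hK15 (by positivity)
      have h2 : (2 : ℝ) * ((q : ℝ) ^ 3 * K ^ 15 * Real.log a) ≤
          (2688 + 1048576 * C0) * ((q : ℝ) ^ 3 * K ^ 15 * Real.log a) :=
        mul_le_mul_of_nonneg_right (by linarith) hP0
      linarith
    set B : ℝ := ((q * a : ℕ) : ℝ) + 1 with hBdef
    have hB1 : (1 : ℝ) ≤ B := by
      rw [hBdef]
      have : (0 : ℝ) ≤ ((q * a : ℕ) : ℝ) := Nat.cast_nonneg _
      linarith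
    have hB0 : (0 : ℝ) < B := by linarith
    have hB3 : B ≤ (a : ℝ) ^ 3 := by
      rw [hBdef]
      push_cast
      have h1 : (q : ℝ) * a ≤ a * a := mul_le_mul_of_nonneg_right hqa (by linarith)
      nlinarith [mul_nonneg (sub_nonneg.2 haR) (sub_nonneg.2 haR), mul_pos (show (0 : ℝ) < a by linarith) (show (0 : ℝ) < a by linarith)]
    have hlB : Real.log B ≤ 3 * Real.log a := by
      calc Real.log B ≤ Real.log ((a : ℝ) ^ 3) := Real.log_le_log hB0 hB3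
        _ = 3 * Real.log a := by rw [Real.log_pow]; norm_num
    have hlB0 : 0 ≤ Real.log B := Real.log_nonneg hB1
    have ha0 : (0 : ℝ) < a := by linarith
    have core := num_core (a := a) (q := q) (K := K) (c := C0) (ℓ := Real.log a) (b := Real.log B)
      ha0 hqR hKR hcR hℓ hlB hlB0 hC
    have hBe : B = Real.exp (Real.log B) := (Real.exp_log hB0).symm
    have hae : (a : ℝ) = Real.exp (Real.log a) := (Real.exp_log ha0).symm
    set X : ℝ := (a : ℝ) ^ q * ((B ^ (q * (2 * K)) *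
      Real.exp (-((a : ℝ) / (2 * K : ℕ) * (1 / (16 * (K : ℝ) ^ 2)) / 4))) *
      (Real.exp (C0 * (q ^ 2 * (2 * K : ℕ) ^ 12)) * (B ^ (q * (2 * K))) ^ (2 * K)) ^ q) with hX
    have hXe : X = Real.exp (q * Real.log a + (q * (2 * K) * Real.log B +
        (-((a : ℝ) / (2 * K) * (1 / (16 * (K : ℝ) ^ 2)) / 4))) +
        q * (C0 * (q ^ 2 * (2 * K) ^ 12) + 2 * K * (q * (2 * K) * Real.log B))) := by
      rw [hX]
      have e1 : (a : ℝ) ^ q = Real.exp (q * Real.log a) := by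
        rw [Real.exp_nat_mul, Real.exp_log ha0]
      have e2 : B ^ (q * (2 * K)) = Real.exp (q * (2 * K) * Real.log B) := by
        have : (q : ℝ) * (2 * K) * Real.log B = ((q * (2 * K) : ℕ) : ℝ) * Real.log B := by
          push_cast; ring
        rw [this, Real.exp_nat_mul, Real.exp_log hB0]
      have e3 : (Real.exp (q * (2 * K) * Real.log B)) ^ (2 * K) =
          Real.exp (2 * K * (q * (2 * K) * Real.log B)) := by
        rw [← Real.exp_nat_mul]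
        push_cast
        ring_nf
      have e4 : ∀ u v : ℝ, (Real.exp u * Real.exp v) ^ q = Real.exp (q * (u + v)) := by
        intro u v
        rw [← Real.exp_add, ← Real.exp_nat_mul]
      rw [e1, e2, e3, e4, ← Real.exp_add, ← Real.exp_add, ← Real.exp_add]
      congr 1
      push_cast
      ring
    have hX0 : 0 < X := by rw [hXe]; exact Real.exp_pos _
    have haX : (a : ℝ) * X ≤ 1 / 2 := by
      have h1 : (a : ℝ) * X = Real.exp (Real.log a + (q * Real.log a + (q * (2 * K) * Real.log B +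
        (-((a : ℝ) / (2 * K) * (1 / (16 * (K : ℝ) ^ 2)) / 4))) +
        q * (C0 * (q ^ 2 * (2 * K) ^ 12) + 2 * K * (q * (2 * K) * Real.log B)))) := by
        rw [Real.exp_add, Real.exp_log ha0, hXe]
      have h2 : (1 / 2 : ℝ) = Real.exp (-Real.log 2) := by
        rw [Real.exp_neg, Real.exp_log (by norm_num)]
        norm_num
      rw [h1, h2]
      apply Real.exp_le_exp.2
      have h3 : Real.log 2 ≤ Real.log a := Real.log_le_log (by norm_num) haR
      linarith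
    have h4 : (1 + X) ^ a ≤ Real.exp (1 / 2) := by
      calc (1 + X) ^ a ≤ (Real.exp X) ^ a :=
            pow_le_pow_left₀ (by linarith) (by linarith [Real.add_one_le_exp X]) a
        _ = Real.exp (a * X) := (Real.exp_nat_mul X a).symm
        _ ≤ Real.exp (1 / 2) := Real.exp_le_exp.2 haX
    have h5 : Real.exp (1 / 2) < 2 := by
      have h6 : Real.exp (1 / 2) ^ 2 = Real.exp 1 := by
        rw [← Real.exp_nat_mul]
        norm_num
      have h7 := Real.exp_one_lt_d9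
      have h8 := Real.exp_pos (1 / 2)
      nlinarith
    linarith

end Vale.Agent.P181.H160
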